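import Mathlib

namespace Vale.Agent.Results.P202.FibreLength

open IsLocalRing Filter

/-- `e` is the Hilbert-Samuel multiplicity of the local ring `A` of Krull dimension `d`. -/
def IsMult (A : Type*) [CommRing A] [IsLocalRing A] (d : ℕ) (e : ℝ) : Prop :=
  ringKrullDim A = d ∧
    Tendsto (fun N : ℕ => (d.factorial : ℝ) *
      (((Module.length A (A ⧸ (maximalIdeal A) ^ N)).toNat : ℕ) : ℝ) / (N : ℝ) ^ d) atTop (nhds e)

variable {R S : Type*} [CommRing R] [CommRing S] [IsLocalRing R] [IsLocalRing S]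
  [IsNoetherianRing R] [IsNoetherianRing S] [Algebra R S] [Module.Flat R S]
  [IsLocalHom (algebraMap R S)]

omit [IsLocalRing R] [IsNoetherianRing R] [Algebra R S] [Module.Flat R S]
  [IsLocalHom (algebraMap R S)] in
theorem length_fin (I : Ideal S) (n : ℕ) (h : maximalIdeal S ^ n ≤ I) (hI : I ≠ ⊤) :
    Module.length S (S ⧸ I) ≠ ⊤ := by
  have hnt : Nontrivial (S ⧸ I) := Ideal.Quotient.nontrivial_iff.mpr hI
  have hloc : IsLocalRing (S ⧸ I) :=
    IsLocalRing.of_surjective' (Ideal.Quotient.mk I) Ideal.Quotient.mk_surjective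
  have hlh : IsLocalHom (Ideal.Quotient.mk I) :=
    IsLocalHom.of_surjective (Ideal.Quotient.mk I) Ideal.Quotient.mk_surjective
  have hmap : (maximalIdeal S).map (Ideal.Quotient.mk I) = maximalIdeal (S ⧸ I) := by
    ext x
    obtain ⟨x, rfl⟩ := Ideal.Quotient.mk_surjective x
    simp [sup_eq_left.mpr (le_maximalIdeal hI)]
  have h1 : IsArtinianRing (S ⧸ I) := by
    rw [isArtinianRing_iff_isNilpotent_maximalIdeal]
    refine ⟨n, ?_⟩
    rw [← hmap, ← Ideal.map_pow, Ideal.zero_eq_bot, Ideal.map_eq_bot_iff_le_ker, Ideal.mk_ker]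
    exact h
  rw [Module.length_eq_of_surjective (R := S ⧸ I) (S := S) (M := S ⧸ I)
    (Ideal.Quotient.mk_surjective)]
  exact Module.length_ne_top

theorem length_mul (I : Ideal R) :
    Module.length S (S ⧸ I.map (algebraMap R S))
      = Module.length R (R ⧸ I) *
        Module.length S (S ⧸ (maximalIdeal R).map (algebraMap R S)) := by
  rw [(Algebra.TensorProduct.quotIdealMapEquivTensorQuot S I).toLinearEquiv.length_eq,
    IsLocalRing.length_baseChange]

/-- main -/
theorem result {R S : Type*} [CommRing R] [CommRing S] [IsLocalRing R] [IsLocalRing S]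
    [IsNoetherianRing R] [IsNoetherianRing S] [Algebra R S] [Module.Flat R S]
    [IsLocalHom (algebraMap R S)] (d t a : ℕ) (ha : 1 ≤ a)
    (h : maximalIdeal S ^ t ≤ (maximalIdeal R ^ a).map (algebraMap R S))
    (eR eS : ℝ) (hR : IsMult R d eR) (hS : IsMult S d eS) :
    (a : ℝ) ^ d * (((Module.length S (S ⧸ (maximalIdeal R).map (algebraMap R S))).toNat : ℕ) : ℝ)
        * eR ≤ (t : ℝ) ^ d * eS ∧
    ((t : ℝ) ^ d ≤ (a : ℝ) ^ d *
        (((Module.length S (S ⧸ (maximalIdeal R).map (algebraMap R S))).toNat : ℕ) : ℝ) →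
      eR ≤ eS) := by
  set L : ℕ := (Module.length S (S ⧸ (maximalIdeal R).map (algebraMap R S))).toNat with hL
  have hle : (maximalIdeal R).map (algebraMap R S) ≤ maximalIdeal S := by
    rw [Ideal.map_le_iff_le_comap]
    intro x hx
    rw [Ideal.mem_comap, mem_maximalIdeal, mem_nonunits_iff]
    intro hu
    exact hx (isUnit_of_map_unit (algebraMap R S) x hu)
  have ht : 1 ≤ t := by
    by_contra hc
    have h0 : t = 0 := by omega
    rw [h0, pow_zero, Ideal.one_eq_top, top_le_iff] at h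
    have h1 : (maximalIdeal R ^ a).map (algebraMap R S) ≤ maximalIdeal S :=
      (Ideal.map_mono (Ideal.pow_le_self (by omega))).trans hle
    rw [h] at h1
    exact (IsLocalRing.maximalIdeal.isMaximal S).ne_top (top_le_iff.1 h1)
  have hineq : ∀ N : ℕ, 1 ≤ N →
      (Module.length R (R ⧸ maximalIdeal R ^ (a * N))).toNat * L
        ≤ (Module.length S (S ⧸ maximalIdeal S ^ (t * N))).toNat := by
    intro N hN
    have h1 : maximalIdeal S ^ (t * N) ≤ (maximalIdeal R ^ (a * N)).map (algebraMap R S) := by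
      rw [pow_mul, pow_mul, Ideal.map_pow]
      exact Ideal.pow_right_mono h N
    have h2 : Module.length S (S ⧸ (maximalIdeal R ^ (a * N)).map (algebraMap R S))
        ≤ Module.length S (S ⧸ maximalIdeal S ^ (t * N)) :=
      Module.length_le_of_surjective (Submodule.factor h1) (Submodule.factor_surjective h1)
    have h3 : Module.length S (S ⧸ maximalIdeal S ^ (t * N)) ≠ ⊤ := by
      refine length_fin _ (t * N) le_rfl ?_
      have : maximalIdeal S ^ (t * N) ≤ maximalIdeal S :=
        Ideal.pow_le_self (Nat.mul_ne_zero (by omega) (by omega))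
      intro hc
      rw [hc] at this
      exact (IsLocalRing.maximalIdeal.isMaximal S).ne_top (top_le_iff.1 this)
    have h4 := ENat.toNat_le_toNat h2 h3
    rw [length_mul, ENat.toNat_mul] at h4
    exact h4
  have hlimR : Tendsto (fun N : ℕ => (d.factorial : ℝ) *
      (((Module.length R (R ⧸ (maximalIdeal R) ^ (a * N))).toNat : ℕ) : ℝ) / ((a * N : ℕ) : ℝ) ^ d)
      atTop (nhds eR) :=
    hR.2.comp (tendsto_id.const_mul_atTop' (by omega))
  have hlimS : Tendsto (fun N : ℕ => (d.factorial : ℝ) *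
      (((Module.length S (S ⧸ (maximalIdeal S) ^ (t * N))).toNat : ℕ) : ℝ) / ((t * N : ℕ) : ℝ) ^ d)
      atTop (nhds eS) :=
    hS.2.comp (tendsto_id.const_mul_atTop' (by omega))
  have hmain : (a : ℝ) ^ d * (L : ℝ) * eR ≤ (t : ℝ) ^ d * eS := by
    refine le_of_tendsto_of_tendsto (hlimR.const_mul ((a : ℝ) ^ d * (L : ℝ)))
      (hlimS.const_mul ((t : ℝ) ^ d)) ?_
    filter_upwards [eventually_ge_atTop 1] with N hN
    have h1 : ((Module.length R (R ⧸ maximalIdeal R ^ (a * N))).toNat : ℝ) * L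
        ≤ ((Module.length S (S ⧸ maximalIdeal S ^ (t * N))).toNat : ℝ) := by
      exact_mod_cast hineq N hN
    have ha' : (0 : ℝ) < a := by exact_mod_cast ha
    have ht' : (0 : ℝ) < t := by exact_mod_cast ht
    have hN' : (0 : ℝ) < N := by exact_mod_cast hN
    push_cast
    rw [mul_pow, mul_pow]
    have e1 : (a : ℝ) ^ d * L * ((d.factorial : ℝ) *
        ((Module.length R (R ⧸ maximalIdeal R ^ (a * N))).toNat : ℝ) / ((a : ℝ) ^ d * (N : ℝ) ^ d))
        = (d.factorial : ℝ) *
          (((Module.length R (R ⧸ maximalIdeal R ^ (a * N))).toNat : ℝ) * L) / (N : ℝ) ^ d := by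
      field_simp
    have e2 : (t : ℝ) ^ d * ((d.factorial : ℝ) *
        ((Module.length S (S ⧸ maximalIdeal S ^ (t * N))).toNat : ℝ) / ((t : ℝ) ^ d * (N : ℝ) ^ d))
        = (d.factorial : ℝ) *
          ((Module.length S (S ⧸ maximalIdeal S ^ (t * N))).toNat : ℝ) / (N : ℝ) ^ d := by
      field_simp
    rw [e1, e2]
    gcongr
  refine ⟨hmain, fun hh => ?_⟩
  have hS0 : 0 ≤ eS := ge_of_tendsto' hlimS fun N => by positivity
  have hR0 : 0 ≤ eR := ge_of_tendsto' hlimR fun N => by positivity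
  have ht' : (0 : ℝ) < (t : ℝ) ^ d := by
    have : (0 : ℝ) < t := by exact_mod_cast ht
    positivity
  have h5 : (t : ℝ) ^ d * eR ≤ (t : ℝ) ^ d * eS :=
    (mul_le_mul_of_nonneg_right hh hR0).trans hmain
  exact le_of_mul_le_mul_left h5 ht'

end Vale.Agent.Results.P202.FibreLength
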